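import Vale.Agent.P082.PartK

namespace Vale.Agent.Results.P082.Main

open Vale.Agent.P082

/-- Kadison-Ringrose conjecture: for every von Neumann algebra `M` on a complex Hilbert space and
every degree `k + 1 >= 1`, each bounded `(k+1)`-linear cocycle `f` with values in `M` is the
coboundary of a bounded `k`-linear cochain `g` with values in `M`. -/
theorem result {H : Type*} [NormedAddCommGroup H] [InnerProductSpace ℂ H] [CompleteSpace H]
    (M : VonNeumannAlgebra H) (k : ℕ)
    (f : ContinuousMultilinearMap ℂ (fun _ : Fin (k + 1) => M.toStarSubalgebra) M.toStarSubalgebra)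
    (hf : ∀ a, cob (k + 1) f a = 0) :
    ∃ g : ContinuousMultilinearMap ℂ (fun _ : Fin k => M.toStarSubalgebra) M.toStarSubalgebra,
      ∀ a, f a = cob k g a :=
  kadison_ringrose M.toStarSubalgebra M.centralizer_centralizer k f hf

end Vale.Agent.Results.P082.Main
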